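import Vale.Agent.Lib.P150.Defs

open Finset

namespace Vale.Agent.Lib.P150

variable {n : ℕ}

lemma flip_flip (x : Fin n → Bool) (i : Fin n) : flip (flip x i) i = x := by
  unfold flip
  funext k
  by_cases h : k = i
  · subst h; simp
  · simp [Function.update_of_ne h]

lemma sum_flip (i : Fin n) (F : (Fin n → Bool) → ℝ) : ∑ x, F (flip x i) = ∑ x, F x := by
  have hinv : Function.Involutive (fun x : Fin n → Bool => flip x i) := fun x => flip_flip x i
  exact Equiv.sum_comp hinv.toPerm F

lemma spin_flip_same (x : Fin n → Bool) (i : Fin n) : spin (flip x i) i = - spin x i := by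
  unfold spin flip
  cases h : x i <;> simp

lemma spin_flip_ne (x : Fin n → Bool) {i k : Fin n} (h : k ≠ i) :
    spin (flip x i) k = spin x k := by
  unfold spin flip
  simp [Function.update_of_ne h]

lemma spin_mul_self (x : Fin n → Bool) (i : Fin n) : spin x i * spin x i = 1 := by
  unfold spin
  split_ifs <;> norm_num

/-- global spin flip. -/
def negc (x : Fin n → Bool) : Fin n → Bool := fun i => !(x i)

lemma negc_negc (x : Fin n → Bool) : negc (negc x) = x := by
  funext i; simp [negc]

lemma sum_negc (F : (Fin n → Bool) → ℝ) : ∑ x, F (negc x) = ∑ x, F x := by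
  have hinv : Function.Involutive (fun x : Fin n → Bool => negc x) := fun x => negc_negc x
  exact Equiv.sum_comp hinv.toPerm F

lemma spin_negc (x : Fin n → Bool) (i : Fin n) : spin (negc x) i = - spin x i := by
  unfold spin negc
  cases h : x i <;> simp

variable (β : ℝ) (g : Fin n → Fin n → ℝ)

lemma weight_pos (x : Fin n → Bool) : 0 < weight n β g x := Real.exp_pos _

lemma partition_pos : 0 < partition n β g := by
  unfold partition
  apply Finset.sum_pos (fun x _ => weight_pos β g x)
  exact ⟨fun _ => true, Finset.mem_univ _⟩

lemma weight_negc (x : Fin n → Bool) : weight n β g (negc x) = weight n β g x := by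
  unfold weight energy
  congr 2
  apply Finset.sum_congr rfl; intro i _
  apply Finset.sum_congr rfl; intro j _
  rw [spin_negc, spin_negc]
  split_ifs
  · ring
  · rfl

lemma expect_one : expect n β g (fun _ => 1) = 1 := by
  unfold expect
  simp only [mul_one]
  rw [← Finset.sum_div]
  exact div_self (partition_pos β g).ne'

lemma expect_spin (i : Fin n) : expect n β g (fun x => spin x i) = 0 := by
  have h : expect n β g (fun x => spin x i) = - expect n β g (fun x => spin x i) := by
    unfold expect
    calc ∑ x, weight n β g x / partition n β g * spin x i
        = ∑ x, weight n β g (negc x) / partition n β g * spin (negc x) i :=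
          (sum_negc (fun x => weight n β g x / partition n β g * spin x i)).symm
      _ = -∑ x, weight n β g x / partition n β g * spin x i := by
          rw [← Finset.sum_neg_distrib]
          apply Finset.sum_congr rfl; intro x _
          rw [weight_negc, spin_negc]; ring
  linarith

lemma expect_sum {ι : Type*} (s : Finset ι) (F : ι → (Fin n → Bool) → ℝ) :
    expect n β g (fun x => ∑ k ∈ s, F k x) = ∑ k ∈ s, expect n β g (F k) := by
  unfold expect
  simp only [Finset.mul_sum]
  exact Finset.sum_comm

lemma expect_const_mul (c : ℝ) (F : (Fin n → Bool) → ℝ) :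
    expect n β g (fun x => c * F x) = c * expect n β g F := by
  unfold expect
  rw [Finset.mul_sum]
  apply Finset.sum_congr rfl; intro x _; ring

lemma expect_mono (F G : (Fin n → Bool) → ℝ) (h : ∀ x, F x ≤ G x) :
    expect n β g F ≤ expect n β g G := by
  unfold expect
  apply Finset.sum_le_sum; intro x _
  apply mul_le_mul_of_nonneg_left (h x)
  exact div_nonneg (weight_pos β g x).le (partition_pos β g).le

/-- the Dirichlet form as a sum of squares. -/
lemma dirichlet_eq (f : (Fin n → Bool) → ℝ) :
    dirichlet n β g f = (1 / (2 * partition n β g)) * ∑ i, ∑ x,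
      weight n β g x * weight n β g (flip x i) / (weight n β g x + weight n β g (flip x i))
        * (f x - f (flip x i)) ^ 2 := by
  have hZ := (partition_pos β g).ne'
  have key : ∀ i : Fin n, ∑ x, weight n β g x * (f x * (f x - condExp n β g i f x))
      = (1 / 2) * ∑ x,
      weight n β g x * weight n β g (flip x i) / (weight n β g x + weight n β g (flip x i))
        * (f x - f (flip x i)) ^ 2 := by
    intro i
    have h1 : ∑ x, weight n β g x * (f x * (f x - condExp n β g i f x))
        = ∑ x, weight n β g (flip x i) * (f (flip x i) *
            (f (flip x i) - condExp n β g i f (flip x i))) :=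
      (sum_flip i (fun x => weight n β g x * (f x * (f x - condExp n β g i f x)))).symm
    have h2 : ∑ x, weight n β g x * (f x * (f x - condExp n β g i f x))
        = (1 / 2) * ∑ x, (weight n β g x * (f x * (f x - condExp n β g i f x)) +
          weight n β g (flip x i) * (f (flip x i) *
            (f (flip x i) - condExp n β g i f (flip x i)))) := by
      rw [Finset.sum_add_distrib, ← h1]; ring
    rw [h2]
    congr 1
    apply Finset.sum_congr rfl; intro x _
    unfold condExp
    rw [flip_flip]
    have ha := weight_pos β g x
    have hb := weight_pos β g (flip x i)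
    have hab : weight n β g x + weight n β g (flip x i) ≠ 0 := by positivity
    have hba : weight n β g (flip x i) + weight n β g x ≠ 0 := by positivity
    field_simp
    ring
  calc dirichlet n β g f
      = (1 / partition n β g) * ∑ i, ∑ x, weight n β g x * (f x * (f x - condExp n β g i f x)) := by
        unfold dirichlet expect generator
        rw [Finset.sum_comm, Finset.mul_sum]
        apply Finset.sum_congr rfl; intro x _
        rw [← Finset.mul_sum, ← Finset.mul_sum]
        have h3 : -∑ i, (condExp n β g i f x - f x) = ∑ i, (f x - condExp n β g i f x) := by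
          rw [← Finset.sum_neg_distrib]
          apply Finset.sum_congr rfl; intro i _; ring
        simp only [h3]
        ring
    _ = _ := by
        simp only [key]
        rw [← Finset.mul_sum]
        field_simp

lemma dirichlet_nonneg (f : (Fin n → Bool) → ℝ) : 0 ≤ dirichlet n β g f := by
  rw [dirichlet_eq]
  apply mul_nonneg
  · have := partition_pos β g; positivity
  · apply Finset.sum_nonneg; intro i _
    apply Finset.sum_nonneg; intro x _
    have ha := weight_pos β g x
    have hb := weight_pos β g (flip x i)
    positivity

lemma variance_nonneg (f : (Fin n → Bool) → ℝ) : 0 ≤ variance n β g f := by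
  -- Var f = E (f - E f)^2
  have h : variance n β g f = expect n β g (fun x => (f x - expect n β g f) ^ 2) := by
    have e1 : (fun x => (f x - expect n β g f) ^ 2)
        = fun x => ∑ k ∈ (Finset.univ : Finset (Fin 3)),
          (if k = 0 then f x ^ 2 else if k = 1 then (-2 * expect n β g f) * f x
            else (expect n β g f ^ 2) * 1) := by
      funext x
      simp [Fin.sum_univ_three]
      ring
    rw [e1, expect_sum]
    simp only [Fin.sum_univ_three]
    simp only [if_true, Fin.isValue, one_ne_zero, if_false]
    have h20 : ((2 : Fin 3) = 0) = False := by simp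
    have h21 : ((2 : Fin 3) = 1) = False := by simp
    simp only [h20, h21, if_false]
    rw [expect_const_mul, expect_const_mul, expect_one]
    unfold variance
    ring
  rw [h]
  have := expect_mono β g (fun _ => 0) (fun x => (f x - expect n β g f) ^ 2)
    (fun x => by positivity)
  have h0 : expect n β g (fun _ => (0 : ℝ)) = 0 := by simp [expect]
  linarith

lemma gap_mul_variance_le (f : (Fin n → Bool) → ℝ) :
    gap n β g * variance n β g f ≤ dirichlet n β g f := by
  by_cases hv : variance n β g f = 0
  · rw [hv, mul_zero]; exact dirichlet_nonneg β g f
  · have hpos : 0 < variance n β g f := lt_of_le_of_ne (variance_nonneg β g f) (Ne.symm hv)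
    rw [← le_div_iff₀ hpos]
    apply csInf_le
    · refine ⟨0, ?_⟩
      rintro r ⟨f', _, rfl⟩
      exact div_nonneg (dirichlet_nonneg β g f') (variance_nonneg β g f')
    · exact ⟨f, hv, rfl⟩

end Vale.Agent.Lib.P150
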