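import Mathlib

/-!
Definitions for P150 (Glauber dynamics of the Sherrington-Kirkpatrick model), for a fixed
realisation `g` of the disorder.  A configuration is `x : Fin n → Bool`; its `i`-th spin is
`spin x i ∈ {1, -1}`.
-/

namespace Vale.Agent.Lib.P150

/-- the value in `{1, -1}` of the `i`-th spin of the configuration `x`. -/
def spin {n : ℕ} (x : Fin n → Bool) (i : Fin n) : ℝ := if x i then 1 else -1

/-- the configuration `x` with the `i`-th spin flipped. -/
def flip {n : ℕ} (x : Fin n → Bool) (i : Fin n) : Fin n → Bool :=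
  Function.update x i (!(x i))

/-- the exponent `(β / √n) ∑_{i<j} g_{ij} x_i x_j`. -/
noncomputable def energy (n : ℕ) (β : ℝ) (g : Fin n → Fin n → ℝ) (x : Fin n → Bool) : ℝ :=
  β / Real.sqrt n * ∑ i, ∑ j, if i < j then g i j * spin x i * spin x j else 0

/-- the unnormalised Gibbs weight. -/
noncomputable def weight (n : ℕ) (β : ℝ) (g : Fin n → Fin n → ℝ) (x : Fin n → Bool) : ℝ :=
  Real.exp (energy n β g x)

/-- the partition function `Z`. -/
noncomputable def partition (n : ℕ) (β : ℝ) (g : Fin n → Fin n → ℝ) : ℝ :=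
  ∑ x, weight n β g x

/-- expectation under the Gibbs measure `μ`. -/
noncomputable def expect (n : ℕ) (β : ℝ) (g : Fin n → Fin n → ℝ) (f : (Fin n → Bool) → ℝ) : ℝ :=
  ∑ x, weight n β g x / partition n β g * f x

/-- variance under `μ`. -/
noncomputable def variance (n : ℕ) (β : ℝ) (g : Fin n → Fin n → ℝ) (f : (Fin n → Bool) → ℝ) : ℝ :=
  expect n β g (fun x => f x ^ 2) - expect n β g f ^ 2

/-- `Q_i f`: the conditional expectation of `f` under `μ` given all spins other than `i`. -/
noncomputable def condExp (n : ℕ) (β : ℝ) (g : Fin n → Fin n → ℝ) (i : Fin n)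
    (f : (Fin n → Bool) → ℝ) (x : Fin n → Bool) : ℝ :=
  (weight n β g x * f x + weight n β g (flip x i) * f (flip x i)) /
    (weight n β g x + weight n β g (flip x i))

/-- the generator `L = ∑_i (Q_i - I)` of the heat-bath dynamics. -/
noncomputable def generator (n : ℕ) (β : ℝ) (g : Fin n → Fin n → ℝ)
    (f : (Fin n → Bool) → ℝ) (x : Fin n → Bool) : ℝ :=
  ∑ i, (condExp n β g i f x - f x)

/-- the Dirichlet form `⟨f, -L f⟩` in `L²(μ)`. -/
noncomputable def dirichlet (n : ℕ) (β : ℝ) (g : Fin n → Fin n → ℝ)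
    (f : (Fin n → Bool) → ℝ) : ℝ :=
  expect n β g (fun x => f x * (-(generator n β g f x)))

/-- the spectral gap of `-L` on `L²(μ)`, by its variational formula: the infimum of
`⟨f, -L f⟩ / Var(f)` over the functions `f` that are not `μ`-a.s. constant. -/
noncomputable def gap (n : ℕ) (β : ℝ) (g : Fin n → Fin n → ℝ) : ℝ :=
  sInf {r : ℝ | ∃ f : (Fin n → Bool) → ℝ, variance n β g f ≠ 0 ∧
    r = dirichlet n β g f / variance n β g f}

/-- the two-point function `⟨x_i x_j⟩` under `μ`. -/
noncomputable def corr (n : ℕ) (β : ℝ) (g : Fin n → Fin n → ℝ) (i j : Fin n) : ℝ :=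
  expect n β g (fun x => spin x i * spin x j)

/-- the second moment `⟨R_{12}^2⟩` of the overlap `R_{12} = n⁻¹ ∑_i x_i y_i` of two independent
samples `x, y` of `μ`. -/
noncomputable def overlapSq (n : ℕ) (β : ℝ) (g : Fin n → Fin n → ℝ) : ℝ :=
  expect n β g (fun x => expect n β g (fun y => ((∑ i, spin x i * spin y i) / n) ^ 2))

end Vale.Agent.Lib.P150
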