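import Vale.Agent.Lib.P150.Basic

open Finset

namespace Vale.Agent.Lib.P150

variable {n : ℕ} (β : ℝ) (g : Fin n → Fin n → ℝ)

/-- the replica test function `f_y(x) = ∑_k y_k x_k`. -/
noncomputable def testFn (y : Fin n → Bool) (x : Fin n → Bool) : ℝ := ∑ k, spin y k * spin x k

lemma testFn_diff (y x : Fin n → Bool) (i : Fin n) :
    testFn y x - testFn y (flip x i) = 2 * (spin y i * spin x i) := by
  unfold testFn
  rw [← Finset.sum_sub_distrib, Finset.sum_eq_single i]
  · rw [spin_flip_same]; ring
  · intro k _ hk
    rw [spin_flip_ne x hk]; ring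
  · intro h; exact absurd (Finset.mem_univ i) h

lemma dirichlet_testFn_le (y : Fin n → Bool) : dirichlet n β g (testFn y) ≤ n := by
  rw [dirichlet_eq]
  have hZ := partition_pos β g
  have h1 : ∀ i : Fin n, ∑ x,
      weight n β g x * weight n β g (flip x i) / (weight n β g x + weight n β g (flip x i))
        * (testFn y x - testFn y (flip x i)) ^ 2 ≤ 2 * partition n β g := by
    intro i
    calc ∑ x, weight n β g x * weight n β g (flip x i) /
          (weight n β g x + weight n β g (flip x i)) * (testFn y x - testFn y (flip x i)) ^ 2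
        ≤ ∑ x, (weight n β g x + weight n β g (flip x i)) := by
          apply Finset.sum_le_sum; intro x _
          rw [testFn_diff]
          have ha := weight_pos β g x
          have hb := weight_pos β g (flip x i)
          have e : (2 * (spin y i * spin x i)) ^ 2 = 4 := by
            have h1 := spin_mul_self y i
            have h2 := spin_mul_self x i
            calc (2 * (spin y i * spin x i)) ^ 2
                = 4 * ((spin y i * spin y i) * (spin x i * spin x i)) := by ring
              _ = 4 := by rw [h1, h2]; norm_num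
          rw [e, div_mul_eq_mul_div, div_le_iff₀ (by positivity)]
          nlinarith [sq_nonneg (weight n β g x - weight n β g (flip x i))]
      _ = 2 * partition n β g := by
          rw [Finset.sum_add_distrib, sum_flip i (fun x => weight n β g x)]
          unfold partition; ring
  calc (1 / (2 * partition n β g)) * ∑ i, ∑ x,
      weight n β g x * weight n β g (flip x i) / (weight n β g x + weight n β g (flip x i))
        * (testFn y x - testFn y (flip x i)) ^ 2
      ≤ (1 / (2 * partition n β g)) * ∑ _i : Fin n, 2 * partition n β g := by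
        apply mul_le_mul_of_nonneg_left (Finset.sum_le_sum (fun i _ => h1 i)) (by positivity)
    _ = n := by
        rw [Finset.sum_const, Finset.card_univ, Fintype.card_fin, nsmul_eq_mul]
        field_simp

lemma testFn_sq (y x : Fin n → Bool) :
    testFn y x ^ 2 = ∑ k, ∑ l, (spin y k * spin y l) * (spin x k * spin x l) := by
  unfold testFn
  rw [sq, Finset.sum_mul_sum]
  apply Finset.sum_congr rfl; intro k _
  apply Finset.sum_congr rfl; intro l _
  ring

lemma expect_testFn_sq (y : Fin n → Bool) :
    expect n β g (fun x => testFn y x ^ 2) = ∑ k, ∑ l, (spin y k * spin y l) * corr n β g k l := by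
  simp only [testFn_sq]
  rw [expect_sum]
  apply Finset.sum_congr rfl; intro k _
  rw [expect_sum]
  apply Finset.sum_congr rfl; intro l _
  rw [expect_const_mul]
  rfl

lemma variance_testFn (y : Fin n → Bool) :
    variance n β g (testFn y) = ∑ k, ∑ l, (spin y k * spin y l) * corr n β g k l := by
  unfold variance
  rw [expect_testFn_sq]
  have h0 : expect n β g (testFn y) = 0 := by
    have : testFn y = fun x => ∑ k, spin y k * spin x k := rfl
    rw [this, expect_sum]
    apply Finset.sum_eq_zero; intro k _
    rw [expect_const_mul, expect_spin, mul_zero]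
  rw [h0]; ring

lemma expect_expect_testFn_sq :
    expect n β g (fun y => expect n β g (fun x => testFn y x ^ 2))
      = ∑ k, ∑ l, corr n β g k l ^ 2 := by
  simp only [expect_testFn_sq]
  rw [expect_sum]
  apply Finset.sum_congr rfl; intro k _
  rw [expect_sum]
  apply Finset.sum_congr rfl; intro l _
  have : (fun y : Fin n → Bool => spin y k * spin y l * corr n β g k l)
      = fun y => corr n β g k l * (spin y k * spin y l) := by
    funext y; ring
  rw [this, expect_const_mul]
  unfold corr
  ring

/-- `gap * ∑_{k,l} ⟨x_k x_l⟩² ≤ n`. -/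
theorem gap_corr_le : gap n β g * ∑ k, ∑ l, corr n β g k l ^ 2 ≤ n := by
  rw [← expect_expect_testFn_sq, ← expect_const_mul]
  have h : ∀ y : Fin n → Bool, gap n β g * expect n β g (fun x => testFn y x ^ 2) ≤ (n : ℝ) * 1 := by
    intro y
    rw [expect_testFn_sq, ← variance_testFn, mul_one]
    exact (gap_mul_variance_le β g (testFn y)).trans (dirichlet_testFn_le β g y)
  have h2 := expect_mono β g _ _ h
  rw [expect_const_mul β g (n : ℝ) (fun _ => 1), expect_one, mul_one] at h2
  exact h2

lemma overlapSq_eq : overlapSq n β g = (∑ k, ∑ l, corr n β g k l ^ 2) / (n : ℝ) ^ 2 := by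
  rw [← expect_expect_testFn_sq]
  unfold overlapSq
  have e : ∀ x y : Fin n → Bool, ((∑ i, spin x i * spin y i) / (n : ℝ)) ^ 2
      = (1 / (n : ℝ) ^ 2) * testFn x y ^ 2 := by
    intro x y
    unfold testFn
    rw [div_pow]; ring
  simp only [e]
  simp only [expect_const_mul]
  ring

/-- `gap * (n ⟨R₁₂²⟩) ≤ 1`. -/
theorem gap_overlap_le (hn : 0 < n) : gap n β g * ((n : ℝ) * overlapSq n β g) ≤ 1 := by
  have h := gap_corr_le β g
  rw [overlapSq_eq]
  have hn' : (0 : ℝ) < n := by exact_mod_cast hn
  have e : gap n β g * ((n : ℝ) * ((∑ k, ∑ l, corr n β g k l ^ 2) / (n : ℝ) ^ 2))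
      = (gap n β g * ∑ k, ∑ l, corr n β g k l ^ 2) / n := by
    field_simp
  rw [e, div_le_one hn']
  exact h

end Vale.Agent.Lib.P150
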